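import Vale.Agent.P119N.Stm

/-! Basic facts on densities close to the Gaussian. -/

open MeasureTheory Filter Topology Set
open scoped InnerProductSpace

namespace Vale.Agent.P119

namespace NBasAux

theorem up (f g : E3 × E3 → ℝ) (k : ℝ) (hf : ∀ z, 0 ≤ f z) (h : ∀ z, f z ≤ k * g z) {n : ℕ}
    (z : Cfg n) : tens f z ≤ k ^ n * tens g z := by
  have h1 : ∏ i : Fin n, k * g (z i) = k ^ n * tens g z := by
    rw [Finset.prod_mul_distrib, Finset.prod_const, Finset.card_univ, Fintype.card_fin]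
    rfl
  rw [← h1]
  exact Finset.prod_le_prod (fun i _ => hf _) fun i _ => h _

theorem low (f g : E3 × E3 → ℝ) (k : ℝ) (hk : 0 ≤ k) (hg : ∀ z, 0 ≤ g z)
    (h : ∀ z, k * g z ≤ f z) {n : ℕ} (z : Cfg n) : k ^ n * tens g z ≤ tens f z := by
  have h1 : ∏ i : Fin n, k * g (z i) = k ^ n * tens g z := by
    rw [Finset.prod_mul_distrib, Finset.prod_const, Finset.card_univ, Fintype.card_fin]
    rfl
  rw [← h1]
  exact Finset.prod_le_prod (fun i _ => mul_nonneg hk (hg _)) fun i _ => h _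

theorem em : Real.exp (-1) ≤ 1 / 2 := by
  have h1 : (1 : ℝ) + 1 ≤ Real.exp 1 := Real.add_one_le_exp 1
  rw [Real.exp_neg, one_div]
  exact inv_anti₀ (by norm_num) (by linarith)

end NBasAux

theorem n_bas (hsg3 : S_g3) (hten : N_ten) : N_bas := by
  intro c a b δ g hP hN
  obtain ⟨h0, h1, hm, hi, hb⟩ := hN
  have hc : 0 < c := hP.1
  have hG : ∀ z, 0 < gau c a b 0 z := gau_pos hc a b 0
  have hu : ∀ z, g z ≤ (1 + δ) * gau c a b 0 z := fun z => by
    have := (abs_le.1 (hb z)).2
    linarith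
  have hl : ∀ z, 1 / 2 * gau c a b 0 z ≤ g z := fun z => by
    have h2 := (abs_le.1 (hb z)).1
    have h3 := mul_le_mul_of_nonneg_right h1 (hG z).le
    linarith
  have hpos : ∀ z, 0 < g z := fun z => lt_of_lt_of_le (by have := hG z; linarith) (hl z)
  have h2 : ∀ z, g z ≤ 2 * gau c a b 0 z := fun z =>
    (hu z).trans (mul_le_mul_of_nonneg_right (by linarith) (hG z).le)
  have hue : ∀ z, g z ≤ Real.exp δ * gau c a b 0 z := fun z =>
    (hu z).trans (mul_le_mul_of_nonneg_right
      (by have := Real.add_one_le_exp δ; linarith) (hG z).le)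
  have hle : ∀ z, Real.exp (-1) * gau c a b 0 z ≤ g z := fun z =>
    (mul_le_mul_of_nonneg_right NBasAux.em (hG z).le).trans (hl z)
  have hD : Dens g := ⟨hm, fun z => (hpos z).le, integrable_of_integral_eq_one hi, hi⟩
  refine ⟨hD, fun z => ⟨hpos z, h2 z⟩, fun n => ⟨fun z => ?_, ?_⟩⟩
  · obtain ⟨_, _, hf, _⟩ := (hsg3 c a b n hP).1 0
    have hcn : 0 < c ^ n := pow_pos hc n
    have ht : 0 < tens g z := Finset.prod_pos fun i _ => hpos _
    have hq : 0 < tens g z / c ^ n := div_pos ht hcn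
    refine ⟨ht, ?_, ?_⟩
    · have e1 := NBasAux.up g _ _ (fun z => (hpos z).le) hue z
      rw [hf z] at e1
      have e2 : tens g z / c ^ n ≤ Real.exp (n * δ - Qn a b 0 z) := by
        rw [div_le_iff₀ hcn, sub_eq_add_neg, Real.exp_add, Real.exp_nat_mul]
        linarith
      have e3 := (Real.log_le_iff_le_exp hq).2 e2
      linarith
    · have e1 := NBasAux.low g _ _ (Real.exp_pos (-1)).le (fun z => (hG z).le) hle z
      rw [hf z] at e1
      have e2 : Real.exp (n * (-1) - Qn a b 0 z) ≤ tens g z / c ^ n := by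
        rw [le_div_iff₀ hcn, sub_eq_add_neg, Real.exp_add, Real.exp_nat_mul]
        linarith
      have e3 := (Real.le_log_iff_exp_le hq).2 e2
      linarith
  · obtain ⟨hQm, hQ0, _⟩ := (hsg3 c a b n hP).1 0
    have hI := (hsg3 c a b n hP).2.1
    obtain ⟨hTm, hT0, _⟩ := hten g n hD
    refine Integrable.mono' (hI.const_mul (2 ^ n)) (hQm.mul hTm).aestronglyMeasurable
      (Eventually.of_forall fun z => ?_)
    rw [Real.norm_of_nonneg (mul_nonneg (hQ0 z) (hT0 z))]
    have e1 := mul_le_mul_of_nonneg_left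
      (NBasAux.up g _ _ (fun z => (hpos z).le) h2 z) (hQ0 z)
    linarith

end Vale.Agent.P119
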