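import Vale.Agent.P119N.Stm

/-! The entropy bound for data close to a Gaussian. -/

open MeasureTheory Filter Topology Set
open scoped InnerProductSpace

namespace Vale.Agent.P119

theorem n_ent (hsg3 : S_g3) (hsent : S_ent) (hten : N_ten) (hbas : N_bas) : N_ent := by
  intro c a b δ ε t g n T hP hN hp hT hv i2 X M Λ hX hM hΛ
  obtain ⟨g1, -, g3⟩ := hsg3 c a b n hP
  obtain ⟨hD, -, hb⟩ := hbas c a b δ g hP hN
  obtain ⟨b1, b2⟩ := hb n
  obtain ⟨t1, t2, t3, -⟩ := hten g n hD
  have cn : 0 < c ^ n := pow_pos hP.1 n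
  have e : ∀ z : Cfg n, c ^ n * Real.exp (-Qn a b t z) = tens (gau c a b t) z :=
    fun z => ((g1 t).2.2.1 z).symm
  obtain ⟨q0, hq0⟩ : ∃ q0 : Cfg n → ℝ, q0 = fun z => -Real.log (tens g z / c ^ n) := ⟨_, rfl⟩
  have e0 : ∀ z : Cfg n, c ^ n * Real.exp (-q0 z) = tens g z := fun z => by
    rw [hq0]
    dsimp only
    rw [neg_neg, Real.exp_log (div_pos (b1 z).1 cn), mul_div_cancel₀ _ cn.ne']
  have qm : Measurable q0 := by
    rw [hq0]
    exact (t1.div_const _).log.neg
  have ql : ∀ z, Qn a b 0 z - n * δ ≤ q0 z ∧ q0 z ≤ Qn a b 0 z + n := fun z => by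
    rw [hq0]
    dsimp only
    constructor <;> linarith [(b1 z).2.1, (b1 z).2.2]
  have nd : (n : ℝ) * δ ≤ n :=
    mul_le_of_le_one_right (Nat.cast_nonneg n) (hN.2.1.trans (by norm_num))
  have i0 : IntegrableOn (fun z : Cfg n => tens g z) (excl ε n) := t3.integrableOn
  have i1 : IntegrableOn (fun z => X (T z) * tens g z) (excl ε n) :=
    Integrable.bdd_mul (c := M) i0 (hX.comp hT).aestronglyMeasurable
      (ae_of_all _ fun z => hM _)
  have i3 : IntegrableOn (fun z : Cfg n => Qn a b 0 z * tens g z) (excl ε n) :=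
    b2.integrableOn
  have i6 : IntegrableOn (fun z : Cfg n => q0 z * tens g z) (excl ε n) := by
    refine Integrable.mono' (i3.add (i0.const_mul (n : ℝ))) (qm.mul t1).aestronglyMeasurable
      (ae_of_all _ fun z => ?_)
    have h0 := (g1 0).2.1 z
    have h1 : |q0 z| ≤ Qn a b 0 z + n := abs_le.2 ⟨by linarith [(ql z).1], (ql z).2⟩
    rw [Real.norm_eq_abs, abs_mul, abs_of_nonneg (t2 z), Pi.add_apply, ← add_mul]
    exact mul_le_mul_of_nonneg_right h1 (t2 z)
  have i4 : Integrable fun z => Real.exp (X z) * tens (gau c a b t) z :=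
    Integrable.bdd_mul (c := Real.exp M) (g1 t).2.2.2.1 hX.exp.aestronglyMeasurable
      (ae_of_all _ fun z => by
        rw [Real.norm_eq_abs, abs_of_pos (Real.exp_pos _)]
        exact Real.exp_le_exp.2 ((le_abs_self _).trans (hM z)))
  have i5 : IntegrableOn (fun z => X (T z) * tens g z - Qn a b t (T z) * tens g z) (excl ε n) :=
    i1.sub i2
  have h := hsent (Cfg n) volume (excl ε n) T q0 (Qn a b t) X (c ^ n) Λ
    (g3 ε) hT (g1 t).1 hX cn hv
  simp only [e, e0, add_mul, sub_mul] at h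
  have h1 := h i0 (i5.add i6) i4 hΛ hp
  rw [integral_add i5 i6, integral_sub i1 i2] at h1
  change _ ≤ pg g ε n * (Λ - Real.log (pg g ε n)) at h1
  have i7 : IntegrableOn (fun z : Cfg n => (n * δ) * tens g z) (excl ε n) := i0.const_mul _
  have h2 : ∫ z in excl ε n, (Qn a b 0 z * tens g z - (n * δ) * tens g z) ≤
      ∫ z in excl ε n, q0 z * tens g z :=
    integral_mono (i3.sub i7) i6 fun z => by
      dsimp only
      rw [← sub_mul]
      exact mul_le_mul_of_nonneg_right (ql z).1 (t2 z)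
  rw [integral_sub i3 i7, integral_const_mul] at h2
  change _ - n * δ * pg g ε n ≤ _ at h2
  linarith

end Vale.Agent.P119
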