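import Vale.Agent.P119N.Stm

/-! The entropy bound for the number of close pairs, data close to a Gaussian. -/

open MeasureTheory Filter Topology Set
open scoped InnerProductSpace

namespace Vale.Agent.P119

theorem n_ey (hrY : R_Y) (hrZu : R_Zu) (hrZl : R_Zl) (hent : N_ent) (hsg3 : S_g3)
    (hten : N_ten) (hbas : N_bas) : N_ey := by
  intro c a b δ ε t K k g n T hp hN hε h0 hT hv hi hg hK hw
  have _ := hsg3
  obtain ⟨-, y1, y2⟩ := hrY ε n hε
  obtain ⟨m1, m2, m3⟩ := y2 (2 * ε)
  obtain ⟨-, t0, t1, -⟩ := hten g n (hbas c a b δ g hp hN).1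
  have u := hrZu c a b t (2 * ε) K k n hp hg hK hw
  have bd : ∀ x : ℝ, |x| ≤ n → |k * x| ≤ k * n := fun x hx => by
    rw [abs_mul, abs_of_nonneg hg]
    exact mul_le_mul_of_nonneg_left hx hg
  have e1 := hent c a b δ ε t g n T hp hN h0 hT hv hi (fun z => k * Zu (2 * ε) z) (k * n) _
    (m1.const_mul k) (fun z => bd _ (m3 z).1) u
  have e2 := hent c a b δ ε t g n T hp hN h0 hT hv hi (fun z => k * Zl (2 * ε) z) (k * n) _
    (m2.const_mul k) (fun z => bd _ (m3 z).2) ((hrZl c a b t (2 * ε) k n).trans_le u)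
  have i0 : IntegrableOn (fun z : Cfg n => tens g z) (excl ε n) := t1.integrableOn
  have i1 : IntegrableOn (fun z => k * Zu (2 * ε) (T z) * tens g z) (excl ε n) :=
    Integrable.bdd_mul i0 ((m1.comp hT).const_mul k).aestronglyMeasurable
      (ae_of_all _ fun z => bd _ (m3 (T z)).1)
  have i2 : IntegrableOn (fun z => k * Zl (2 * ε) (T z) * tens g z) (excl ε n) :=
    Integrable.bdd_mul i0 ((m2.comp hT).const_mul k).aestronglyMeasurable
      (ae_of_all _ fun z => bd _ (m3 (T z)).2)
  have q : ∫ z in excl ε n, k * (Yn ε (T z) * tens g z) ≤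
      ∫ z in excl ε n, (k * Zu (2 * ε) (T z) * tens g z +
        k * Zl (2 * ε) (T z) * tens g z) := by
    refine integral_mono_of_nonneg (ae_of_all _ fun z => ?_) (i1.add i2) (ae_of_all _ fun z => ?_)
    · exact mul_nonneg hg (mul_nonneg (y1 _).1 (t0 z))
    · have := mul_le_mul_of_nonneg_left
        (mul_le_mul_of_nonneg_right (y1 (T z)).2.2 (t0 z)) hg
      simp only
      linarith
  rw [integral_const_mul, integral_add i1 i2] at q
  linarith

end Vale.Agent.P119
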