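import Vale.Agent.P119N.Top

open MeasureTheory Filter Topology Set

namespace Vale.Agent.P119

theorem finalN (Φ : E3 → ℝ) (hΦ : IsAdm Φ)
    (hV : Repulsive Φ ∨ Superstable Φ ∨ VirialStable Φ)
    (β c a b T : ℝ) (hβ : 0 < β) (hb : 2 * β ≤ b) (hc : 0 < c) (ha : 0 < a)
    (h1 : ∫ z, gau c a b 0 z = 1) (hT : 0 < T) (M : ℝ) (s : ℕ) (hs : 1 ≤ s) :
    ∃ C : ℝ, ∀ (S : E3 → E3 → E3) (δ : ℝ) (g : E3 × E3 → ℝ) (f : ℝ → E3 × E3 → ℝ),
      IsScatMap Φ S → Near c a b δ g → RegularB S β g T f M →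
      ∀ ε : ℝ, 0 < ε → ε < 1 → ∀ Fl : ∀ n : ℕ, ℝ → Cfg n → Cfg n,
        (∀ n, IsFlow Φ ε (Fl n)) → ∀ t ∈ Icc 0 T,
        (∀ φ : Cfg s → ℝ, Measurable φ → (∀ y, |φ y| ≤ 1) →
          |marg g ε Fl s t φ - ∫ y, φ y * tens (f t) y| ≤ C * Real.sqrt ε + C * Real.sqrt δ) ∧
        ∀ F : Cfg s → ℝ, Integrable F →
          (∀ φ : Cfg s → ℝ, Measurable φ → (∀ y, |φ y| ≤ 1) →
            ∫ y, φ y * F y = marg g ε Fl s t φ) →
          ∫ y, |F y - tens (f t) y| ≤ C * Real.sqrt ε + C * Real.sqrt δ := by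
  have hP : Par c a b := ⟨hc, ha, by linarith, h1⟩
  have hW : VirialStable Φ := hV.elim (u_rep Φ hΦ) fun h => h.elim (u_sup Φ hΦ) id
  obtain ⟨C, hC0, hC⟩ := w_main Φ c a b T s hΦ hW hP hs
  obtain ⟨A, hA0, hA⟩ := w_stab β c a b T M hβ hP hT
  refine ⟨C + s * A, fun S δ g f hS hN hf ε h0 h1 Fl hFl t ht => ?_⟩
  have hE : Elastic S := fun V hV =>
    (hS V hV).mono fun ρ h h' => u_scat Φ V ρ _ hΦ hV (h h')
  obtain ⟨i1, i2, i3⟩ := w_tens (f t) (gau c a b t) s (hf.2.1 t ht).1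
    (fun z => (gau_pos hc a b t z).le) (hf.2.1 t ht).2 ((t_g1 c a b hP).1 t).2
  have d0 : 0 ≤ √δ := Real.sqrt_nonneg δ
  have d1 : √δ ≤ 1 := Real.sqrt_le_one.2 (by linarith [hN.2.1])
  have d2 : √δ * √δ = δ := Real.mul_self_sqrt hN.1
  have d3 : δ ≤ √δ := by nlinarith
  have key : ∀ φ : Cfg s → ℝ, Measurable φ → (∀ y, |φ y| ≤ 1) →
      |marg g ε Fl s t φ - ∫ y, φ y * tens (f t) y| ≤
        (C + s * A) * Real.sqrt ε + (C + s * A) * Real.sqrt δ := fun φ hφ hφ1 => by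
    have a1 := hC δ g hN ε h0 h1 Fl hFl t ht.1 ht.2 φ hφ hφ1
    have j1 : Integrable (fun y => φ y * tens (f t) y) :=
      i1.bdd_mul (c := 1) hφ.aestronglyMeasurable (ae_of_all _ hφ1)
    have j2 : Integrable (fun y => φ y * tens (gau c a b t) y) :=
      i2.bdd_mul (c := 1) hφ.aestronglyMeasurable (ae_of_all _ hφ1)
    have a2 : |(∫ y, φ y * tens (f t) y) - ∫ y, φ y * tens (gau c a b t) y| ≤
        ∫ y : Cfg s, |tens (f t) y - tens (gau c a b t) y| := by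
      rw [← integral_sub j1 j2]
      refine abs_integral_le_integral_abs.trans (integral_mono (j1.sub j2).abs (i1.sub i2).abs
        fun y => ?_)
      show |φ y * tens (f t) y - φ y * tens (gau c a b t) y| ≤ _
      rw [← mul_sub, abs_mul]
      exact mul_le_of_le_one_left (abs_nonneg _) (hφ1 y)
    have a3 := mul_le_mul_of_nonneg_left ((hA S δ g f hE hN hf t ht).trans
      (mul_le_mul_of_nonneg_left d3 hA0)) (Nat.cast_nonneg (α := ℝ) s)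
    have a4 := abs_sub_le (marg g ε Fl s t φ) (∫ y, φ y * tens (gau c a b t) y)
      (∫ y, φ y * tens (f t) y)
    rw [abs_sub_comm] at a2
    have a5 : 0 ≤ s * A * √ε := by positivity
    nlinarith
  refine ⟨key, fun F hF hFm => ?_⟩
  refine t_L1 _ volume F _ _ hF i1 fun φ hφ hφ1 => ?_
  rw [hFm φ hφ hφ1]
  exact key φ hφ hφ1

end Vale.Agent.P119
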