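import Vale.Agent.P119N.Stm

open MeasureTheory Filter Topology Set
open scoped InnerProductSpace

namespace Vale.Agent.P119

theorem n_fixA (hrctl : R_ctl) (hralg : R_alg) (hfixI : N_fixI) (hfixX : N_fixX)
    (hrliou : R_liou) (hent : N_ent) (hey : N_ey) (hsg3 : S_g3) (hten : N_ten) (hbas : N_bas) :
    N_fixA := by
  intro Φ c a b T hΦ hV hP
  obtain ⟨B, η, hC⟩ := hrctl Φ hΦ hV
  obtain ⟨k, C₀, hk, hC₀, hA⟩ := hralg a b B η T hP.2.1 hP.2.2.1 hC.1 hC.2.1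
  refine ⟨C₀ * (Real.exp k + 1), by positivity, ?_⟩
  intro δ ε K g n Fl hN hε hK hF hK' hp hlog t ht htT
  have hI := hfixI Φ B η ε c a b δ g n Fl hΦ hC hε hP hN hF
  have hL := fun s hs => hrliou Φ ε n Fl s hΦ hε hF hs
  obtain ⟨h3, -, -⟩ := hsg3 c a b n hP
  obtain ⟨-, t1, t2, t3⟩ := hten g n (hbas c a b δ g hP hN).1
  have hp1 : pg g ε n ≤ 1 := by
    rw [← t3]
    exact setIntegral_le_integral t2 (ae_of_all _ fun z => t1 z)
  have hd : 0 ≤ (n : ℝ) * δ := mul_nonneg (Nat.cast_nonneg n) hN.1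
  have hh : 0 ≤ pg g ε n * (-Real.log (pg g ε n) + n * δ) :=
    mul_nonneg hp.le (add_nonneg (neg_nonneg.2 (Real.log_nonpos hp.le hp1)) hd)
  have he : 0 ≤ Real.exp k - 1 := sub_nonneg.2 (Real.one_le_exp hk)
  have hl : 0 ≤ pg g ε n * ((Real.exp k - 1) * (n : ℝ) ^ 2 * K) :=
    mul_nonneg hp.le (mul_nonneg (mul_nonneg he (sq_nonneg _)) hK)
  obtain ⟨M, hM⟩ := hfixX Φ B η ε c a b δ T g n Fl hΦ hC hε hP hN hF
  obtain ⟨h0, hX⟩ := hM _ _ _ rfl rfl rfl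
  have key := hA _ _ _ _ _ M hh hl (fun s hs hsT => by
    obtain ⟨x1, x2, x3, x4, x5⟩ := hX s hs hsT
    refine ⟨x1, x2, x3, x4, ?_, ?_, x5⟩
    · have := hent c a b δ ε s g n (Fl s) hP hN hp (hF.1 s) (hL s hs) (hI s hs) (fun _ => 0) 0 0
        measurable_const (fun _ => by simp) (by simp [(h3 s).2.2.2.2])
      rw [h0]
      simp only [zero_mul, integral_zero, mul_zero, zero_add] at this
      linarith
    · rw [h0]
      exact hey c a b δ ε s K k g n (Fl s) hP hN hε hp (hF.1 s) (hL s hs) (hI s hs) hk hK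
        (hK' s))
    t ht htT
  refine ⟨hF.1 t, hL t ht, hI t ht, ?_⟩
  rw [h0] at key
  refine key.trans ?_
  have h1 : -Real.log (pg g ε n) + n * δ + (Real.exp k - 1) * (n : ℝ) ^ 2 * K ≤
      (Real.exp k + 1) * ((n : ℝ) ^ 2 * K + n * δ) := by
    have := mul_nonneg (Real.exp_pos k).le hd
    linarith
  have h2 := mul_le_mul_of_nonneg_left h1 (mul_nonneg hC₀ hp.le)
  linarith

end Vale.Agent.P119
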