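import Vale.Agent.P119N.Stm

/-! From disjoint blocks to all ordered tuples of particles. -/

open MeasureTheory Filter Topology Set
open scoped InnerProductSpace

namespace Vale.Agent.P119

namespace NFixDAux

theorem up (hperm : S_perm) (hfixC : N_fixC) (hten : N_ten) (hbas : N_bas) {ε c a b δ t L : ℝ}
    {f : E3 × E3 → ℝ} {n : ℕ} {T : Cfg n → Cfg n} (hP : Par c a b) (hN : Near c a b δ f)
    (hp : 0 < pg f ε n) (hG : GoodN f a b ε t T L) {m s : ℕ} {φ : Cfg s → ℝ} {g : ℝ} (hm : 1 ≤ m)
    (hms : m * s ≤ n) (hφ : Measurable φ) (hb : ∀ y, |φ y| ≤ 1) (hg : 0 < g) :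
    (∫ z in excl ε n, (∑ e : Fin s ↪ Fin n, φ (fun k => T z (e k))) * tens f z) -
      (∫ y, φ y * tens (gau c a b t) y) * pg f ε n * (n.descFactorial s : ℝ) ≤
      (n.descFactorial s : ℝ) * pg f ε n *
        (g / 2 + (-Real.log (pg f ε n) + n * δ + L) / (m * g)) := by
  have hi : ∀ e : Fin s ↪ Fin n, Integrable
      (fun z => φ (fun k => T z (e k)) * tens f z)
      (volume.restrict (excl ε n)) := fun e => by
    refine ((hten f n (hbas c a b δ f hP hN).1).2.2.1.integrableOn).bdd_mul (c := 1) ?_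
      (Eventually.of_forall fun z => hb _)
    exact (hφ.comp (measurable_pi_lambda _ fun k =>
      (measurable_pi_apply (e k)).comp hG.1)).aestronglyMeasurable
  simp only [Finset.sum_mul]
  rw [integral_finset_sum _ fun e _ => hi e]
  have m0 : (0 : ℝ) < m := by exact_mod_cast hm
  have k := hperm m s n
    (fun e => ∫ z in excl ε n, φ (fun k => T z (e k)) * tens f z)
    (pg f ε n * ((∫ y, φ y * tens (gau c a b t) y) + g / 2 +
      (-Real.log (pg f ε n) + n * δ + L) / (m * g))) hm hms fun e =>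
    (hfixC ε c a b δ t L f n T hP hN hp hG m s e φ g hφ hb hg).trans (le_of_eq (by
      field_simp))
  linarith

end NFixDAux

open NFixDAux in
theorem n_fixD (hsperm : S_perm) (hfixC : N_fixC) (hten : N_ten) (hbas : N_bas) : N_fixD := by
  intro ε c a b δ t L f n T hP hN hp hG m s φ g hm hms hφ hb hg
  have h1 := up hsperm hfixC hten hbas hP hN hp hG hm hms hφ hb hg
  have h2 := up hsperm hfixC hten hbas hP hN hp hG (φ := fun y => -φ y) hm hms hφ.neg
    (fun y => by rw [abs_neg]; exact hb y) hg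
  simp only [Finset.sum_neg_distrib, neg_mul, integral_neg] at h2
  exact abs_le.2 ⟨by linarith, h1⟩

end Vale.Agent.P119
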