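import Vale.Agent.P119N.Stm

open MeasureTheory Filter Topology Set
open scoped InnerProductSpace

namespace Vale.Agent.P119

namespace NFixEAux

theorem key1 (C L K δ g n m s : ℝ) (hC : 0 ≤ C) (hK : 0 ≤ K) (hδ : 0 ≤ δ) (hg : 0 < g)
    (hm : 0 < m) (hn : 0 ≤ n) (hL : L ≤ 2 * n ^ 2 * K) (hnm : n ≤ 2 * s * m) :
    (L + n * δ + C * (n ^ 2 * K + n * δ)) / (m * g) ≤
      2 * s * (1 + C) * δ / g + 2 * s * (2 + C) * K / g * n := by
  have h2 : (2 + C) * (n * K) * n ≤ (2 + C) * (n * K) * (2 * s * m) :=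
    mul_le_mul_of_nonneg_left hnm (mul_nonneg (by linarith) (mul_nonneg hn hK))
  have h3 : (1 + C) * δ * n ≤ (1 + C) * δ * (2 * s * m) :=
    mul_le_mul_of_nonneg_left hnm (mul_nonneg (by linarith) hδ)
  rw [div_le_iff₀ (mul_pos hm hg)]
  have e : (2 * s * (1 + C) * δ / g + 2 * s * (2 + C) * K / g * n) * (m * g) =
      (1 + C) * δ * (2 * s * m) + (2 + C) * (n * K) * (2 * s * m) := by
    field_simp
  rw [e]
  nlinarith

theorem key2 (C K g n s : ℝ) (hC : 0 ≤ C) (hg : 0 < g) (hg1 : g ≤ 1) (hs : 1 ≤ s)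
    (h : 1 / 2 < n * K) : 2 ≤ g / 2 + 2 * s * (2 + C) * K / g * n := by
  have e : 2 * s * (2 + C) * K / g * n = 2 * (s * (2 + C)) * (n * K) / g := by ring
  have h1 : 2 ≤ s * (2 + C) := by nlinarith
  have h2 : 2 ≤ 2 * (s * (2 + C)) * (n * K) / g := by
    rw [le_div_iff₀ hg]
    nlinarith
  rw [e]
  linarith

end NFixEAux

theorem n_fixE (hp : N_p) (hsplow : S_plow) (hfixD : N_fixD) (htriv : N_triv)
    (hstriv : S_triv) (hbas : N_bas) : N_fixE := by
  intro ε c a b δ t K C g n T hε hP hN hTm hK hC hB hG s φ k hs hφ hφ1 hk hk1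
  have hd : Dens g := (hbas c a b δ g hP hN).1
  have hδ : 0 ≤ δ := hN.1
  obtain ⟨hp0, hpn⟩ := hp g ε K hd hB
  have hθ := (hstriv ε c a b t 0 s id φ hP measurable_id hφ hφ1).1
  have hT := htriv ε _ g n s T φ hd hθ hTm hφ hφ1
  have hD : 0 ≤ (n.descFactorial s : ℝ) * pg g ε n :=
    mul_nonneg (Nat.cast_nonneg _) (hpn n).1
  have hsr : (1 : ℝ) ≤ s := by exact_mod_cast hs
  by_cases hns : n < s
  · have h0 : (n.descFactorial s : ℝ) = 0 := by
      rw [Nat.descFactorial_eq_zero_iff_lt.mpr hns, Nat.cast_zero]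
    refine hT.trans ?_
    rw [h0]
    simp
  by_cases hnK : (n : ℝ) * K ≤ 1 / 2
  · obtain ⟨hpos, hL⟩ := hsplow (pg g ε) K n hK hp0 (fun j => (hpn j).2.2) hnK
    have hsn : s ≤ n := not_lt.mp hns
    have hm1 : 1 ≤ n / s := (Nat.le_div_iff_mul_le (by omega)).mpr (by omega)
    have hm2 : n / s * s ≤ n := Nat.div_mul_le_self n s
    have hm3 : n ≤ 2 * s * (n / s) := by
      have h1 : n < s * (n / s + 1) := Nat.lt_mul_div_succ n (by omega)
      have h2 : s * (n / s + 1) ≤ s * (2 * (n / s)) := Nat.mul_le_mul_left _ (by omega)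
      calc n ≤ s * (2 * (n / s)) := by omega
        _ = 2 * s * (n / s) := by ring
    have h := hfixD ε c a b δ t _ g n T hP hN hpos (hG hpos hL) (n / s) s φ k hm1 hm2 hφ hφ1 hk
    refine h.trans (mul_le_mul_of_nonneg_left ?_ hD)
    have h4 := NFixEAux.key1 C (-Real.log (pg g ε n)) K δ k n
      ((n / s : ℕ) : ℝ) s hC hK hδ hk (by exact_mod_cast hm1) (Nat.cast_nonneg _) hL
      (by exact_mod_cast hm3)
    linarith
  · refine hT.trans (mul_le_mul_of_nonneg_left ?_ hD)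
    have h5 := NFixEAux.key2 C K k n s hC hk hk1 hsr (not_le.mp hnK)
    have h6 : 0 ≤ 2 * (s : ℝ) * (1 + C) * δ / k := by positivity
    linarith

end Vale.Agent.P119
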