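import Vale.Agent.P119N.Stm

/-! Integrability of the transported exponent. -/

open MeasureTheory Filter Topology Set
open scoped InnerProductSpace

namespace Vale.Agent.P119

theorem n_fixI (hrdom : R_dom) (hsg3 : S_g3) (hten : N_ten) (hbas : N_bas) : N_fixI := by
  intro Φ B η ε c a b δ g n Fl hΦ hC hε hP hN hF t ht
  obtain ⟨h1, -, h4⟩ := hsg3 c a b n hP
  obtain ⟨hD, -, h5⟩ := hbas c a b δ g hP hN
  obtain ⟨t1, t2, t3, -⟩ := hten g n hD
  obtain ⟨-, ha, hb, -⟩ := hP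
  obtain ⟨C, -, hdm⟩ := hrdom Φ B η ε a b t n hΦ hC hε ha hb
  refine Integrable.mono' ((((h5 n).2.add t3).const_mul C).integrableOn)
    ((((h1 t).1.comp (hF.1 t)).mul t1).aestronglyMeasurable) ?_
  filter_upwards [hF.2, ae_restrict_mem (h4 ε)] with z hz hz'
  have h3 := (hdm (fun t => Fl t z) hz.2 (by rwa [hz.1]) t ht le_rfl).1
  rw [hz.1] at h3
  have p := t2 z
  rw [Real.norm_eq_abs, abs_of_nonneg (mul_nonneg ((h1 t).2.1 _) p)]
  refine (mul_le_mul_of_nonneg_right h3 p).trans (le_of_eq ?_)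
  rw [Pi.add_apply]
  ring

end Vale.Agent.P119
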