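import Vale.Agent.P119N.Stm

open MeasureTheory Filter Topology Set
open scoped InnerProductSpace

namespace Vale.Agent.P119

namespace NFixXAux

theorem pull (f g : ℝ → ℝ) (w r : ℝ) :
    ∫ s in (0 : ℝ)..r, f s * (g s * w) = (∫ s in (0 : ℝ)..r, f s * g s) * w := by
  rw [← intervalIntegral.integral_mul_const]
  simp only [mul_assoc]

end NFixXAux

theorem n_fixX (hrpath : R_path) (hrdom : R_dom) (hrexp : R_exp) (hrvir : R_vir) (hrY : R_Y)
    (hsg3 : S_g3) (hten : N_ten) (hbas : N_bas) : N_fixX := by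
  intro Φ B η ε c a b δ T g n Fl hΦ hC hε hP hN hFl
  obtain ⟨hg, -, -⟩ := hsg3 c a b n hP
  obtain ⟨hd, -, hn⟩ := hbas c a b δ g hP hN
  have hI0 := (hn n).2
  obtain ⟨mt, tp, ig, -⟩ := hten g n hd
  have ha := hP.2.1
  have hb := hP.2.2.1
  have hae := ae_restrict_mem (μ := (volume : Measure (Cfg n))) (meas_excl ε n)
  obtain ⟨C, -, hD⟩ := hrdom Φ B η ε a b T n hΦ hC hε ha hb
  obtain ⟨y1, y2, -⟩ := hrY ε n hε
  have i2 : SigmaFinite (volume : Measure (Cfg n)) := Measure.pi.sigmaFinite _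
  have pa : ∀ᵐ z ∂(volume.restrict (excl ε n)), Fl 0 z = z ∧ Newton Φ ε (fun t => Fl t z) ∧
      Fl 0 z ∈ excl ε n := by
    filter_upwards [hFl.2, hae] with z hz hz'
    exact ⟨hz.1, hz.2, by rw [hz.1]; exact hz'⟩
  refine ⟨∫ z in excl ε n, C * (Qn a b 0 z + 1) * tens g z, ?_⟩
  rintro q u y rfl rfl rfl
  refine ⟨integral_congr_ae ?_, fun t t0 t1 => ?_⟩
  · filter_upwards [hFl.2] with z hz
    simp only [hz.1]
  obtain ⟨k1, k2, k3, k4⟩ := hrexp (Cfg n) (volume.restrict (excl ε n))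
    (fun s z => Qn a b s (Fl s z) * tens g z)
    (fun s z => Ut Φ B ε (Fl s z) * tens g z)
    (fun s z => Yn ε (Fl s z) * tens g z)
    (fun z => C * (Qn a b 0 z + 1) * tens g z) a b B η T ha hb hC.2.1
    (fun s => ⟨((hg s).1.comp (hFl.1 s)).mul mt,
      (((hrvir Φ ε n hΦ hε).2.2.2.add (y1.measurable.const_mul B)).comp (hFl.1 s)).mul mt,
      ig.integrableOn.bdd_mul (c := n)
        (y1.measurable.comp (hFl.1 s)).aestronglyMeasurable (Eventually.of_forall fun z => by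
          rw [Real.norm_of_nonneg (y2 _).1]
          exact (y2 _).2.1)⟩)
    (by
      have e : (fun z : Cfg n => C * (Qn a b 0 z + 1) * tens g z) =
          fun z => C * (Qn a b 0 z * tens g z + tens g z) :=
        funext fun z => by ring
      rw [e]
      exact ((hI0.add ig).const_mul C).integrableOn)
    (by
      filter_upwards [pa] with z hz
      obtain ⟨h1, h2, h3, h4⟩ := hrpath Φ B η ε a b n (fun t => Fl t z) hΦ hC hε ha hb hz.2.1 hz.2.2
      refine ⟨h1.mul continuous_const, h2.mul continuous_const, fun s s0 s1 => ?_, fun r hr => ?_⟩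
      · obtain ⟨d1, d2⟩ := hD (fun t => Fl t z) hz.2.1 hz.2.2 s s0 s1
        simp only [hz.1] at d1 d2
        rw [abs_of_nonneg (mul_nonneg ((hg s).2.1 _) (tp z)),
          abs_of_nonneg (mul_nonneg (h3 s).1 (tp z))]
        exact ⟨mul_le_mul_of_nonneg_right d1 (tp z), mul_le_mul_of_nonneg_right d2 (tp z)⟩
      · have h5 := mul_le_mul_of_nonneg_right (h4 r hr) (tp z)
        rw [NFixXAux.pull (fun s => 2 * a * s / (b + a * s ^ 2) ^ 2) fun s => Qn a b s (Fl s z),
          NFixXAux.pull (fun s => 2 * a * s / (b + a * s ^ 2) / η) fun s => Ut Φ B ε (Fl s z)]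
        refine le_of_eq_of_le ?_ (h5.trans_eq ?_) <;> ring)
    t t0 t1
  refine ⟨k1, k2, integral_nonneg_of_ae ?_, k3, k4⟩
  filter_upwards [pa] with z hz
  exact mul_nonneg ((hrpath Φ B η ε a b n (fun t => Fl t z) hΦ hC hε ha hb hz.2.1 hz.2.2).2.2.1 t).1
    (tp z)

end Vale.Agent.P119
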