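import Vale.Agent.P119N.Stm

/-! A Gronwall lemma with a decreasing Gaussian weight, a moving weight and small data. -/

open MeasureTheory Filter Topology Set
open scoped InnerProductSpace

namespace Vale.Agent.P119

namespace NGronAux

theorem quad {C κ : ℝ} (hκ : 0 < κ) (r : ℝ) : 2 * C * (1 + r) ≤ 2 * C + C ^ 2 / κ + κ * r ^ 2 := by
  have h : 0 ≤ (C - κ * r) ^ 2 / κ := by positivity
  have e : (C - κ * r) ^ 2 / κ = C ^ 2 / κ + κ * r ^ 2 - 2 * C * r := by
    field_simp
    ring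
  linarith

theorem dB (M A l κ r t : ℝ) :
    HasDerivAt (fun s => M * Real.exp (A * s) * Real.exp (-((l - κ * s) * r ^ 2)))
      ((A + κ * r ^ 2) * (M * Real.exp (A * t) * Real.exp (-((l - κ * t) * r ^ 2)))) t := by
  have h1 : HasDerivAt (fun s => A * s) A t := by simpa using (hasDerivAt_id t).const_mul A
  have h2 : HasDerivAt (fun s => -((l - κ * s) * r ^ 2)) (κ * r ^ 2) t := by
    have h3 : HasDerivAt (fun s => κ * s) κ t := by simpa using (hasDerivAt_id t).const_mul κ
    exact (((h3.const_sub l).mul_const (r ^ 2)).neg).congr_deriv (by ring)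
  exact ((h1.exp.const_mul M).mul h2.exp).congr_deriv (by ring)

theorem num {C Q r d x e₁ e₂ w w' : ℝ} (hC : 0 ≤ C) (hr : 0 ≤ r) (hd : 0 ≤ d) (hx : 0 ≤ x)
    (h1 : 0 ≤ e₁) (h2 : 0 ≤ e₂) (hw : 0 ≤ w) (hw' : |w'| ≤ 4 * r * w)
    (hq : 2 * (C + 2) * (1 + r) ≤ Q) :
    C * ((2 * d + x) * e₁) * (1 + r) * w * e₂ ≤
      Q * ((2 * d + x * (1 / 2)) * e₁ * e₂) * w + (2 * d + x * (1 / 2)) * e₁ * e₂ * w' := by
  have hM : 0 ≤ (2 * d + x * (1 / 2)) * e₁ * e₂ := by positivity
  have a1 := mul_le_mul_of_nonneg_left (abs_le.1 hw').1 hM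
  have a2 := mul_le_mul_of_nonneg_right hq (mul_nonneg hM hw)
  have a3 : 0 ≤ C * d * e₁ * (1 + r) * w * e₂ := by positivity
  have a4 := mul_nonneg hM hw
  nlinarith

end NGronAux

open NGronAux in
theorem n_gron : N_gron := by
  intro T l C hT hl hC
  obtain ⟨κ, hκd⟩ : ∃ κ, κ = l / (2 * T) := ⟨_, rfl⟩
  have hκ : 0 < κ := by rw [hκd]; positivity
  have hκT : κ * T = l / 2 := by rw [hκd]; field_simp
  obtain ⟨A, hA⟩ : ∃ A, A = 2 * (C + 2) + (C + 2) ^ 2 / κ := ⟨_, rfl⟩
  have hA0 : 0 ≤ A := by rw [hA]; positivity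
  have hq : ∀ x, 2 * (C + 2) * (1 + x) ≤ A + κ * x ^ 2 := fun x => by rw [hA]; exact quad hκ x
  refine ⟨2 * Real.exp (A * T), by positivity, ?_⟩
  intro ι h D ω ω' r N₀ d hN hd hr hω h0 hD hb hs
  have key : ∀ k : ℕ, ∀ t ∈ Icc 0 T, ∀ i, |h t i| ≤ (2 * d + N₀ * (1 / 2) ^ k) *
      Real.exp (A * t) * Real.exp (-((l - κ * t) * r i ^ 2)) * ω t i := by
    intro k
    induction k with
    | zero =>
      intro t ht i
      refine (hb t ht i).trans ?_
      rw [mul_right_comm N₀]
      refine mul_le_mul_of_nonneg_right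
        (mul_le_mul ?_ (Real.exp_le_exp.2 ?_) (Real.exp_pos _).le ?_) (hω t i).1
      · rw [pow_zero, mul_one]
        exact le_trans (by linarith) (le_mul_of_one_le_right (by positivity)
          (Real.one_le_exp (mul_nonneg hA0 ht.1)))
      · have := mul_nonneg (mul_nonneg hκ.le ht.1) (sq_nonneg (r i))
        linarith
      · positivity
    | succ k ih =>
      intro t ht i
      refine image_norm_le_of_norm_deriv_right_le_deriv_boundary (f := fun s => h s i)
        (f' := fun s => D s i) (a := 0) (b := T) (fun s hs => (hD s hs i).continuousWithinAt)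
        (fun s hs => (hD s (Ico_subset_Icc_self hs) i).mono_of_mem_nhdsWithin
          (Icc_mem_nhdsGE_of_mem hs)) ?_
        (fun s => (dB (2 * d + N₀ * (1 / 2) ^ (k + 1)) A l κ (r i) s).mul (hω s i).2.1) ?_ ht
      · refine (h0 i).trans ?_
        show _ ≤ (2 * d + N₀ * (1 / 2) ^ (k + 1)) * Real.exp (A * 0) *
          Real.exp (-((l - κ * 0) * r i ^ 2)) * ω 0 i
        rw [mul_zero, mul_zero, sub_zero, Real.exp_zero, mul_one, mul_right_comm d]
        have : 0 ≤ N₀ * (1 / 2) ^ (k + 1) := by positivity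
        exact mul_le_mul_of_nonneg_right
          (mul_le_mul_of_nonneg_right (by linarith) (Real.exp_pos _).le) (hω 0 i).1
      · intro s hs'
        have hs2 := Ico_subset_Icc_self hs'
        have h1 : κ * s ≤ κ * T := mul_le_mul_of_nonneg_left hs2.2 hκ.le
        have h2 : 0 ≤ κ * s := mul_nonneg hκ.le hs2.1
        refine (hs s hs2 (l - κ * s) ((2 * d + N₀ * (1 / 2) ^ k) * Real.exp (A * s)) (by linarith)
          (by linarith) (by positivity)
          (fun j => (ih s hs2 j).trans_eq (mul_right_comm _ _ _)) i).trans ?_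
        rw [pow_succ (1 / 2 : ℝ) k, ← mul_assoc N₀]
        exact num hC (hr i) hd (by positivity) (Real.exp_pos _).le (Real.exp_pos _).le
          (hω s i).1 (hω s i).2.2 (hq (r i))
  intro t ht i
  have hlim : Tendsto (fun k : ℕ => (2 * d + N₀ * (1 / 2) ^ k) *
      Real.exp (A * t) * Real.exp (-((l - κ * t) * r i ^ 2)) * ω t i) atTop
      (𝓝 ((2 * d + N₀ * 0) * Real.exp (A * t) * Real.exp (-((l - κ * t) * r i ^ 2)) * ω t i)) :=
    (((((tendsto_pow_atTop_nhds_zero_of_lt_one (r := (1 / 2 : ℝ)) (by norm_num)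
      (by norm_num)).const_mul N₀).const_add (2 * d)).mul_const _).mul_const _).mul_const _
  refine (ge_of_tendsto' hlim fun k => key k t ht i).trans ?_
  rw [mul_zero, add_zero, mul_right_comm (2 * Real.exp (A * T) * d)]
  have h1 : κ * t ≤ κ * T := mul_le_mul_of_nonneg_left ht.2 hκ.le
  refine mul_le_mul_of_nonneg_right
    (mul_le_mul ?_ (Real.exp_le_exp.2 ?_) (Real.exp_pos _).le (by positivity)) (hω t i).1
  · rw [mul_right_comm 2 (Real.exp (A * T))]
    exact mul_le_mul_of_nonneg_left (Real.exp_le_exp.2 (mul_le_mul_of_nonneg_left ht.2 hA0))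
      (by positivity)
  · have := mul_le_mul_of_nonneg_right (show l / 2 ≤ l - κ * t by linarith) (sq_nonneg (r i))
    linarith

end Vale.Agent.P119
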