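import Vale.Agent.P119N.Stm
import Vale.Agent.P119.Main

open MeasureTheory Filter Topology Set
open scoped InnerProductSpace

namespace Vale.Agent.P119

def N_main : Prop := ∀ (Φ : E3 → ℝ) (c a b T : ℝ) (s : ℕ), IsAdm Φ → VirialStable Φ →
  Par c a b → 1 ≤ s → ∃ C : ℝ, 0 ≤ C ∧ ∀ (δ : ℝ) (g : E3 × E3 → ℝ), Near c a b δ g →
    ∀ ε : ℝ, 0 < ε → ε < 1 → ∀ Fl : ∀ n : ℕ, ℝ → Cfg n → Cfg n,
    (∀ n, IsFlow Φ ε (Fl n)) → ∀ t, 0 ≤ t → t ≤ T → ∀ φ : Cfg s → ℝ, Measurable φ →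
    (∀ y, |φ y| ≤ 1) →
    |marg g ε Fl s t φ - ∫ y, φ y * tens (gau c a b t) y| ≤ C * (Real.sqrt ε + Real.sqrt δ)

theorem n_main (hg1 : S_g1) (hg2 : R_g2) (hp : N_p) (hbas : N_bas) (hfixA : N_fixA)
    (hfixE : N_fixE) (htriv : S_triv) (hgc : S_gc) : N_main := by
  intro Φ c a b T s hΦ hV hP hs
  obtain ⟨K, hK, hb⟩ := hg2 c a b hP
  obtain ⟨C, hC, hA⟩ := hfixA Φ c a b T hΦ hV hP
  refine ⟨(1 / 2 + 4 * s * (2 + C) * (8 * K) * (1 + s) + s * (1 + s) * (8 * K)) +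
    (1 / 2 + 4 * s * (1 + C)), by positivity, ?_⟩
  intro δ g hN ε h0 h1 Fl hFl t t0 tT φ hφ hφ1
  have g0 : 0 < √ε := Real.sqrt_pos.2 h0
  have g1 : √ε ≤ 1 := Real.sqrt_le_one.2 h1.le
  have d0 : 0 ≤ √δ := Real.sqrt_nonneg δ
  have d1 : √δ ≤ 1 := Real.sqrt_le_one.2 (by linarith [hN.2.1])
  have d2 : √δ * √δ = δ := Real.mul_self_sqrt hN.1
  have hB := hbas c a b δ g hP hN
  have b1 : ∀ y : E3, ∫ z in {z : E3 × E3 | ‖z.1 - y‖ ≤ ε}, g z ≤ 8 * K * ε ^ 3 := fun y => by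
    have i1 := ((hg1 c a b hP).1 0).1
    have := integral_mono (μ := volume.restrict {z : E3 × E3 | ‖z.1 - y‖ ≤ ε})
      hB.1.2.2.1.integrableOn (i1.const_mul 2).integrableOn fun z => (hB.2.1 z).2
    rw [integral_const_mul] at this
    nlinarith [hb 0 y ε h0, mul_pos hK (pow_pos h0 3)]
  have b2 : ∀ (t : ℝ) (y : E3),
      ∫ z in {z : E3 × E3 | ‖z.1 - y‖ ≤ 2 * ε}, gau c a b t z ≤ 8 * K * ε ^ 3 :=
    fun t y => (hb t y (2 * ε) (by positivity)).trans (le_of_eq (by ring))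
  have hp' := hp g ε (8 * K * ε ^ 3) hB.1 b1
  have k0 : 0 < (√ε + √δ) / 2 := by positivity
  have e1 : 2 * s * (1 + C) * δ / ((√ε + √δ) / 2) ≤ 4 * s * (1 + C) * √δ := by
    rw [div_le_iff₀ k0]
    have : 0 ≤ (s : ℝ) * (1 + C) * (√δ * √ε) := by positivity
    have e : 4 * s * (1 + C) * √δ * ((√ε + √δ) / 2) =
        2 * (s * (1 + C) * (√δ * √ε)) + 2 * s * (1 + C) * (√δ * √δ) := by ring
    rw [e, d2]
    linarith
  have e2 : 2 * s * (2 + C) * (8 * K * ε ^ 3) / ((√ε + √δ) / 2) ≤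
      4 * s * (2 + C) * (8 * K * ε ^ 3) / √ε := by
    rw [div_le_div_iff₀ k0 g0]
    have : 0 ≤ (s : ℝ) * (2 + C) * (8 * K * ε ^ 3) * √δ := by positivity
    nlinarith
  have key := hgc (ε⁻¹ ^ 2) (8 * K * ε ^ 3) (√ε / 2 + (1 / 2 + 4 * s * (1 + C)) * √δ)
    (4 * s * (2 + C) * (8 * K * ε ^ 3) / √ε) (∫ y, φ y * tens (gau c a b t) y) s
    (pg g ε) (fun n => ∫ z in excl ε n,
      (∑ e : Fin s ↪ Fin n, φ (fun k => Fl n t z (e k))) * tens g z)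
    (by positivity) (by positivity) (by positivity) (by positivity)
    (htriv ε c a b t 0 s id φ hP measurable_id hφ hφ1).1 hp'.1 hp'.2 (fun n => by
      refine (hfixE ε c a b δ t (8 * K * ε ^ 3) C g n (Fl n t) h0 hP hN ((hFl n).1 t)
        (by positivity) hC b1
        (fun h h' => hA δ ε (8 * K * ε ^ 3) g n (Fl n) hN h0 (by positivity) (hFl n) b2 h h' t t0
          tT) s φ ((√ε + √δ) / 2) hs hφ hφ1 k0 (by linarith)).trans ?_
      have := (hp'.2 n).1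
      refine mul_le_mul_of_nonneg_left (add_le_add (by nlinarith)
        (mul_le_mul_of_nonneg_right e2 (Nat.cast_nonneg n))) (by positivity))
  have ar := MainAux.arith (R := 4 * s * (2 + C)) (K := 8 * K) (s := s) h0 h1 (by positivity)
    (by positivity)
  refine key.trans ?_
  have p1 : 0 ≤ (1 / 2 + 4 * s * (2 + C) * (8 * K) * (1 + s) + s * (1 + s) * (8 * K)) * √δ := by
    positivity
  have p2 : 0 ≤ (1 / 2 + 4 * s * (1 + C)) * √ε := by positivity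
  nlinarith

end Vale.Agent.P119
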