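import Vale.Agent.P119N.Stm

open MeasureTheory Filter Topology Set
open scoped InnerProductSpace

namespace Vale.Agent.P119

theorem n_p (hpA : N_pA) (hpB : N_pB) (hten : N_ten) : N_p := by
  intro g ε K hP hK
  refine ⟨?_, fun n => ⟨?_, ?_, ?_⟩⟩
  · have e : excl ε 0 = univ := eq_univ_of_forall fun z i => i.elim0
    rw [pg, e, Measure.restrict_univ]
    exact (hten g 0 hP).2.2.2
  · exact setIntegral_nonneg (meas_excl ε n) fun z _ => (hten g n hP).2.1 z
  · rw [(hpA g ε n hP).2]
    refine setIntegral_mono_on (hpA g ε n hP).1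
      (hten g n hP).2.2.1.integrableOn (meas_excl ε n) fun z _ => ?_
    exact mul_le_of_le_one_left ((hten g n hP).2.1 z) (hpB g ε K n z hP hK).2
  · rw [(hpA g ε n hP).2, pg, mul_comm, ← integral_const_mul]
    refine setIntegral_mono_on ((hten g n hP).2.2.1.integrableOn.const_mul _)
      (hpA g ε n hP).1 (meas_excl ε n) fun z _ => ?_
    exact mul_le_mul_of_nonneg_right (hpB g ε K n z hP hK).1 ((hten g n hP).2.1 z)

end Vale.Agent.P119
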