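import Vale.Agent.P119N.Stm

/-! The probability that one more particle avoids the others. -/

open MeasureTheory Filter Topology Set
open scoped InnerProductSpace

namespace Vale.Agent.P119

namespace NPBAux

theorem low {Ω : Type} [MeasurableSpace Ω] (μ : Measure Ω) (f : Ω → ℝ) (hf : Integrable f μ)
    (h0 : ∀ w, 0 ≤ f w) {n : ℕ} (S : Set Ω) (B : Fin n → Set Ω) (hS : MeasurableSet S)
    (hB : ∀ i, MeasurableSet (B i)) (h : ∀ w, w ∉ S → ∃ i, w ∈ B i) :
    ∫ w, f w ∂μ ≤ ∫ w in S, f w ∂μ + ∑ i, ∫ w in B i, f w ∂μ := by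
  have h1 : Integrable (fun w => ∑ i, (B i).indicator f w) μ :=
    integrable_finsetSum _ fun i _ => hf.indicator (hB i)
  have h2 : ∀ w, f w ≤ S.indicator f w + ∑ i, (B i).indicator f w := fun w => by
    have h3 : ∀ i ∈ Finset.univ, 0 ≤ (B i).indicator f w := fun i _ =>
      indicator_nonneg (fun y _ => h0 y) w
    by_cases hw : w ∈ S
    · rw [indicator_of_mem hw]
      exact le_add_of_nonneg_right (Finset.sum_nonneg h3)
    · obtain ⟨i, hi⟩ := h w hw
      rw [indicator_of_notMem hw, zero_add]
      exact (indicator_of_mem hi f).symm.le.trans (Finset.single_le_sum h3 (Finset.mem_univ i))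
  refine (integral_mono hf ((hf.indicator hS).add h1) h2).trans (le_of_eq ?_)
  refine (integral_add (hf.indicator hS) h1).trans ?_
  rw [integral_finsetSum _ fun i _ => hf.indicator (hB i), integral_indicator hS]
  simp only [integral_indicator (hB _)]

end NPBAux

theorem n_pB : N_pB := by
  intro g ε K n z hp hK
  obtain ⟨-, h0, hf, h1⟩ := hp
  have hB : ∀ i, MeasurableSet {w : E3 × E3 | ‖w.1 - (z i).1‖ ≤ ε} := fun i =>
    (isClosed_le (by fun_prop) continuous_const).measurableSet
  have hS : MeasurableSet {w : E3 × E3 | ∀ i, ε < ‖w.1 - (z i).1‖} := by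
    simp only [ofPred_forall]
    exact (isOpen_iInter_of_finite fun i =>
      isOpen_lt continuous_const (by fun_prop)).measurableSet
  refine ⟨?_, (setIntegral_le_integral hf (Eventually.of_forall h0)).trans h1.le⟩
  have h2 := NPBAux.low volume _ hf h0 _ _ hS hB fun w hw => by
    simpa only [mem_ofPred_eq, not_forall, not_lt] using hw
  have h3 : ∑ i, ∫ w in {w : E3 × E3 | ‖w.1 - (z i).1‖ ≤ ε}, g w ≤ n * K :=
    (Finset.sum_le_sum fun i _ => hK (z i).1).trans (by simp)
  rw [h1] at h2
  linarith

end Vale.Agent.P119
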