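import Vale.Agent.P119N.Stm

/-! Pointwise stability of the regular solution near a Gaussian. -/

open MeasureTheory Filter Topology Set
open scoped InnerProductSpace

namespace Vale.Agent.P119

namespace NPtAux

theorem g0 (c a b t : ℝ) (x v : E3) : gau c a b 0 (x - t • v, v) = gau c a b t (x, v) := by
  simp [gau]

theorem ini {c a b l K η : ℝ} (hc : 0 < c) (K0 : 0 ≤ K) (hη : 0 < η) (hl : l ≤ b)
    (hK : ∀ x : E3, Real.exp (-(a * ‖x‖ ^ 2)) ≤ K * ((1 + ‖x‖ ^ 2) ^ 2)⁻¹) (z : E3 × E3) :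
    gau c a b 0 z ≤ c * K * (η + ((1 + ‖z.1‖ ^ 2) ^ 2)⁻¹) * Real.exp (-(l * ‖z.2‖ ^ 2)) := by
  have e1 : Real.exp (-(b * ‖z.2‖ ^ 2)) ≤ Real.exp (-(l * ‖z.2‖ ^ 2)) :=
    Real.exp_le_exp.2 (neg_le_neg (mul_le_mul_of_nonneg_right hl (sq_nonneg _)))
  have e2 : Real.exp (-(a * ‖z.1‖ ^ 2)) ≤ K * (η + ((1 + ‖z.1‖ ^ 2) ^ 2)⁻¹) :=
    (hK z.1).trans (mul_le_mul_of_nonneg_left (by linarith) K0)
  rw [gau, zero_smul, sub_zero, neg_add, Real.exp_add, mul_assoc c K, mul_assoc c]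
  exact mul_le_mul_of_nonneg_left
    (mul_le_mul e2 e1 (Real.exp_pos _).le ((Real.exp_pos _).le.trans e2)) hc.le

end NPtAux

theorem n_pt (hsQbd : S_Qbd) (hgron : N_gron) (hwt : N_wt) : N_pt := by
  intro β c a b T M hβ ⟨hc, ha, hb, _⟩ hT
  have l0 : 0 < min (2 * β) b := lt_min (by positivity) hb
  have l1 := min_le_left (2 * β) b
  have l2 := min_le_right (2 * β) b
  generalize min (2 * β) b = l at *
  have m0 : 0 ≤ max M c := hc.le.trans (le_max_right _ _)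
  obtain ⟨C, C0, hC⟩ := hsQbd (l / 2) (half_pos l0)
  obtain ⟨A, A0, hA⟩ := hgron T l (C * max M c) hT l0 (by positivity)
  obtain ⟨K, K0, hK⟩ := hwt.2.1 a ha
  choose w hw1 hw2 using hwt.1
  refine ⟨A * (c * K), l / 2, by positivity, half_pos l0, ?_⟩
  intro S δ η g f hS hη ⟨δ0, _, _, _, hg⟩ ⟨f0, fp, fd, hM⟩ t ht x v
  have bf : ∀ t ∈ Icc 0 T, ∀ l', l' ≤ l → ∀ x u : E3,
      |f t (x, u)| ≤ max M c * Real.exp (-(l' * ‖u‖ ^ 2)) := fun t ht l' hl x u => by
    have k := (hM t ht x u).trans (le_max_left M c)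
    rw [abs_of_nonneg ((fp t ht).1 _), Real.exp_neg, ← div_eq_mul_inv,
      le_div_iff₀' (Real.exp_pos _)]
    exact (mul_le_mul_of_nonneg_right (Real.exp_le_exp.2
      (mul_le_mul_of_nonneg_right (hl.trans l1) (sq_nonneg _))) ((fp t ht).1 _)).trans k
  have bg : ∀ t l', l' ≤ l → ∀ x u : E3,
      |gau c a b t (x, u)| ≤ max M c * Real.exp (-(l' * ‖u‖ ^ 2)) := fun t l' hl x u => by
    rw [abs_of_pos (gau_pos hc _ _ _ _)]
    refine mul_le_mul (le_max_right _ _) (Real.exp_le_exp.2 (neg_le_neg ?_)) (Real.exp_pos _).le m0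
    have := mul_le_mul_of_nonneg_right (hl.trans l2) (sq_nonneg ‖u‖)
    have : 0 ≤ a * ‖x - t • u‖ ^ 2 := by positivity
    linarith
  have k := hA (E3 × E3) (fun t i => f t (i.1 + t • i.2, i.2) - gau c a b 0 i)
    (fun t i => Qcol S (f t) (i.1 + t • i.2) i.2)
    (fun t i => η + ((1 + ‖i.1 + t • i.2‖ ^ 2) ^ 2)⁻¹) (fun t i => w i.1 i.2 t)
    (fun i => ‖i.2‖) (2 * max M c / η) (δ * (c * K)) (by positivity) (by positivity)
    (fun i => norm_nonneg _)
    (fun t i => ⟨by positivity, (hw1 i.1 i.2 t).const_add η, (hw2 i.1 i.2 t).trans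
      (mul_le_mul_of_nonneg_left (by linarith) (by positivity))⟩)
    (fun i => by
      simp only [zero_smul, add_zero, f0]
      refine (hg i).trans ?_
      have := mul_le_mul_of_nonneg_left (NPtAux.ini hc K0 hη l2 hK i) δ0
      linarith)
    (fun t ht i => (fd t ht i.1 i.2).sub_const _)
    (fun t ht i => (abs_sub _ _).trans (by
      have e1 : 2 * max M c ≤ 2 * max M c / η * (η + ((1 + ‖i.1 + t • i.2‖ ^ 2) ^ 2)⁻¹) := by
        rw [mul_add, div_mul_cancel₀ _ hη.ne']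
        exact le_add_of_nonneg_right (by positivity)
      have e2 := mul_le_mul_of_nonneg_right e1 (Real.exp_pos (-(l * ‖i.2‖ ^ 2))).le
      linarith [bf t ht l le_rfl (i.1 + t • i.2) i.2, bg 0 l le_rfl i.1 i.2]))
    (fun t ht l' N h1 h2 hN h i => by
      have e := hC S (f t) c a b t l' _ (N * (η + ((1 + ‖i.1 + t • i.2‖ ^ 2) ^ 2)⁻¹))
        (i.1 + t • i.2) i.2 hS h1 m0 (by positivity) (bf t ht l' h2 _) (bg t l' h2 _) fun u => by
          have k := h (i.1 + t • i.2 - t • u, u)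
          simp only [sub_add_cancel, NPtAux.g0] at k
          exact k
      refine e.trans (le_of_eq ?_)
      ring) t ht (x - t • v, v)
  simp only [sub_add_cancel, NPtAux.g0] at k
  refine k.trans (le_of_eq ?_)
  ring

end Vale.Agent.P119
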