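import Vale.Agent.P119N.Stm

/-! From the pointwise bound to the integrated stability bound. -/

open MeasureTheory Filter Topology Set
open scoped InnerProductSpace

namespace Vale.Agent.P119

namespace NStabAux

theorem lim (u p w e : ℝ) (h : ∀ η : ℝ, 0 < η → u ≤ p * (η + w) * e) : u ≤ p * (w * e) := by
  have h1 : Tendsto (fun η : ℝ => p * (η + w) * e) (𝓝[>] 0) (𝓝 (p * (0 + w) * e)) :=
    (Continuous.tendsto (by fun_prop) 0).mono_left nhdsWithin_le_nhds
  rw [zero_add, mul_assoc] at h1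
  exact ge_of_tendsto h1 (eventually_nhdsWithin_of_forall h)

end NStabAux

theorem n_stab (hpt : N_pt) (hwt : N_wt) : N_stab := by
  intro β c a b T M hβ hp hT
  obtain ⟨A, l, hA, hl, h⟩ := hpt β c a b T M hβ hp hT
  have hW := hwt.2.2 l hl
  refine ⟨A * ∫ z : E3 × E3, ((1 + ‖z.1‖ ^ 2) ^ 2)⁻¹ * Real.exp (-(l * ‖z.2‖ ^ 2)),
    mul_nonneg hA (integral_nonneg fun z => by positivity), fun S δ g f hS hg hf t ht => ?_⟩
  rw [mul_right_comm, ← integral_const_mul]
  refine integral_mono_of_nonneg (Eventually.of_forall fun z => abs_nonneg _) (hW.const_mul _)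
    (Eventually.of_forall fun z => ?_)
  exact NStabAux.lim _ _ _ _ fun η hη => h S δ η g f hS hη hg hf t ht z.1 z.2

end Vale.Agent.P119
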