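import Vale.Agent.P119S.Stm

/-! Statements of the steps for data close to a Gaussian. -/

open MeasureTheory Filter Topology Set
open scoped InnerProductSpace

namespace Vale.Agent.P119

/-- Probability densities within relative distance `δ` of the Gaussian. -/
def Near (c a b δ : ℝ) (g : E3 × E3 → ℝ) : Prop :=
  0 ≤ δ ∧ δ ≤ 1 / 2 ∧ Measurable g ∧ ∫ z, g z = 1 ∧
    ∀ z, |g z - gau c a b 0 z| ≤ δ * gau c a b 0 z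

/-- Probability densities. -/
def Dens (g : E3 × E3 → ℝ) : Prop :=
  Measurable g ∧ (∀ z, 0 ≤ g z) ∧ Integrable g ∧ ∫ z, g z = 1

noncomputable def pg (g : E3 × E3 → ℝ) (ε : ℝ) (n : ℕ) : ℝ := ∫ z in excl ε n, tens g z

def GoodN (g : E3 × E3 → ℝ) (a b ε t : ℝ) {n : ℕ} (T : Cfg n → Cfg n) (L : ℝ) : Prop :=
  Measurable T ∧ (∀ A, volume (excl ε n ∩ T ⁻¹' A) ≤ volume A) ∧
    IntegrableOn (fun z => Qn a b t (T z) * tens g z) (excl ε n) ∧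
    (∫ z in excl ε n, Qn a b t (T z) * tens g z) -
      ∫ z in excl ε n, Qn a b 0 z * tens g z ≤ pg g ε n * L

/-- A regular kinetic interval with an explicit Gaussian bound. -/
def RegularB (S : E3 → E3 → E3) (β : ℝ) (f₀ : E3 × E3 → ℝ) (T : ℝ) (f : ℝ → E3 × E3 → ℝ)
    (M : ℝ) : Prop :=
  f 0 = f₀ ∧ (∀ t ∈ Icc 0 T, (∀ z, 0 ≤ f t z) ∧ ∫ z, f t z = 1) ∧
    (∀ t ∈ Icc 0 T, ∀ x v : E3, HasDerivWithinAt (fun r => f r (x + r • v, v))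
      (Qcol S (f t) (x + t • v) v) (Icc 0 T) t) ∧
    ∀ t ∈ Icc 0 T, ∀ x v : E3, Real.exp (2 * β * ‖v‖ ^ 2) * f t (x, v) ≤ M

def N_ten : Prop := ∀ (g : E3 × E3 → ℝ) (n : ℕ), Dens g →
  Measurable (fun z : Cfg n => tens g z) ∧ (∀ z : Cfg n, 0 ≤ tens g z) ∧
    Integrable (fun z : Cfg n => tens g z) ∧ ∫ z : Cfg n, tens g z = 1

def N_bas : Prop := ∀ (c a b δ : ℝ) (g : E3 × E3 → ℝ), Par c a b → Near c a b δ g →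
  Dens g ∧ (∀ z, 0 < g z ∧ g z ≤ 2 * gau c a b 0 z) ∧ ∀ n : ℕ,
    (∀ z : Cfg n, 0 < tens g z ∧ Real.log (tens g z / c ^ n) + Qn a b 0 z ≤ n * δ ∧
      -(n : ℝ) ≤ Real.log (tens g z / c ^ n) + Qn a b 0 z) ∧
    Integrable (fun z : Cfg n => Qn a b 0 z * tens g z)

def N_pA : Prop := ∀ (g : E3 × E3 → ℝ) (ε : ℝ) (n : ℕ), Dens g →
  IntegrableOn (fun z : Cfg n => (∫ w in {w : E3 × E3 | ∀ i, ε < ‖w.1 - (z i).1‖}, g w) *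
    tens g z) (excl ε n) ∧
  pg g ε (n + 1) = ∫ z in excl ε n, (∫ w in {w : E3 × E3 | ∀ i, ε < ‖w.1 - (z i).1‖}, g w) *
    tens g z

def N_pB : Prop := ∀ (g : E3 × E3 → ℝ) (ε K : ℝ) (n : ℕ) (z : Cfg n), Dens g →
  (∀ y : E3, ∫ z in {z : E3 × E3 | ‖z.1 - y‖ ≤ ε}, g z ≤ K) →
  1 - n * K ≤ ∫ w in {w : E3 × E3 | ∀ i, ε < ‖w.1 - (z i).1‖}, g w ∧
    ∫ w in {w : E3 × E3 | ∀ i, ε < ‖w.1 - (z i).1‖}, g w ≤ 1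

def N_p : Prop := ∀ (g : E3 × E3 → ℝ) (ε K : ℝ), Dens g →
  (∀ y : E3, ∫ z in {z : E3 × E3 | ‖z.1 - y‖ ≤ ε}, g z ≤ K) →
  pg g ε 0 = 1 ∧ ∀ n : ℕ, 0 ≤ pg g ε n ∧ pg g ε (n + 1) ≤ pg g ε n ∧
    pg g ε n * (1 - n * K) ≤ pg g ε (n + 1)

def N_ent : Prop := ∀ (c a b δ ε t : ℝ) (g : E3 × E3 → ℝ) (n : ℕ) (T : Cfg n → Cfg n),
  Par c a b → Near c a b δ g → 0 < pg g ε n → Measurable T →
  (∀ A, volume (excl ε n ∩ T ⁻¹' A) ≤ volume A) →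
  IntegrableOn (fun z => Qn a b t (T z) * tens g z) (excl ε n) →
  ∀ (X : Cfg n → ℝ) (M Λ : ℝ), Measurable X → (∀ z, |X z| ≤ M) →
  ∫ z, Real.exp (X z) * tens (gau c a b t) z ≤ Real.exp Λ →
  ∫ z in excl ε n, X (T z) * tens g z ≤
    pg g ε n * Λ + pg g ε n * (-Real.log (pg g ε n) + n * δ) +
      ((∫ z in excl ε n, Qn a b t (T z) * tens g z) - ∫ z in excl ε n, Qn a b 0 z * tens g z)

def N_ey : Prop := ∀ (c a b δ ε t K k : ℝ) (g : E3 × E3 → ℝ) (n : ℕ) (T : Cfg n → Cfg n),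
  Par c a b → Near c a b δ g → 0 < ε → 0 < pg g ε n → Measurable T →
  (∀ A, volume (excl ε n ∩ T ⁻¹' A) ≤ volume A) →
  IntegrableOn (fun z => Qn a b t (T z) * tens g z) (excl ε n) → 0 ≤ k → 0 ≤ K →
  (∀ y : E3, ∫ w in {w : E3 × E3 | ‖w.1 - y‖ ≤ 2 * ε}, gau c a b t w ≤ K) →
  k * ∫ z in excl ε n, Yn ε (T z) * tens g z ≤
    2 * (pg g ε n * ((Real.exp k - 1) * (n : ℝ) ^ 2 * K) +
      pg g ε n * (-Real.log (pg g ε n) + n * δ) +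
      ((∫ z in excl ε n, Qn a b t (T z) * tens g z) - ∫ z in excl ε n, Qn a b 0 z * tens g z))

def N_fixI : Prop := ∀ (Φ : E3 → ℝ) (B η ε c a b δ : ℝ) (g : E3 × E3 → ℝ) (n : ℕ)
  (Fl : ℝ → Cfg n → Cfg n), IsAdm Φ → Ctl Φ B η → 0 < ε → Par c a b → Near c a b δ g →
  IsFlow Φ ε Fl → ∀ t, 0 ≤ t → IntegrableOn (fun z => Qn a b t (Fl t z) * tens g z) (excl ε n)

def N_fixX : Prop := ∀ (Φ : E3 → ℝ) (B η ε c a b δ T : ℝ) (g : E3 × E3 → ℝ) (n : ℕ)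
  (Fl : ℝ → Cfg n → Cfg n), IsAdm Φ → Ctl Φ B η → 0 < ε → Par c a b → Near c a b δ g →
  IsFlow Φ ε Fl → ∃ M : ℝ, ∀ q u y : ℝ → ℝ,
  (q = fun s => ∫ z in excl ε n, Qn a b s (Fl s z) * tens g z) →
  (u = fun s => ∫ z in excl ε n, Ut Φ B ε (Fl s z) * tens g z) →
  (y = fun s => ∫ z in excl ε n, Yn ε (Fl s z) * tens g z) →
  q 0 = (∫ z in excl ε n, Qn a b 0 z * tens g z) ∧
  ∀ t, 0 ≤ t → t ≤ T → IntervalIntegrable q volume 0 t ∧ IntervalIntegrable u volume 0 t ∧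
    0 ≤ u t ∧ u t ≤ M ∧
    q t / (b + a * t ^ 2) + 2 * u t + ∫ s in (0 : ℝ)..t, 2 * a * s / (b + a * s ^ 2) ^ 2 * q s ≤
      q 0 / b + 2 * B * y t + ∫ s in (0 : ℝ)..t, 2 * a * s / (b + a * s ^ 2) / η * u s

def N_fixA : Prop := ∀ (Φ : E3 → ℝ) (c a b T : ℝ), IsAdm Φ → VirialStable Φ → Par c a b →
  ∃ C : ℝ, 0 ≤ C ∧ ∀ (δ ε K : ℝ) (g : E3 × E3 → ℝ) (n : ℕ) (Fl : ℝ → Cfg n → Cfg n),
    Near c a b δ g → 0 < ε → 0 ≤ K → IsFlow Φ ε Fl → (∀ (t : ℝ) (y : E3),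
      ∫ w in {w : E3 × E3 | ‖w.1 - y‖ ≤ 2 * ε}, gau c a b t w ≤ K) →
    0 < pg g ε n → -Real.log (pg g ε n) ≤ 2 * (n : ℝ) ^ 2 * K →
    ∀ t, 0 ≤ t → t ≤ T → GoodN g a b ε t (Fl t) (C * ((n : ℝ) ^ 2 * K + n * δ))

def N_fixC : Prop := ∀ (ε c a b δ t L : ℝ) (g : E3 × E3 → ℝ) (n : ℕ) (T : Cfg n → Cfg n),
  Par c a b → Near c a b δ g → 0 < pg g ε n → GoodN g a b ε t T L →
  ∀ (m s : ℕ) (e : Fin m × Fin s ↪ Fin n) (φ : Cfg s → ℝ) (k : ℝ), Measurable φ →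
  (∀ y, |φ y| ≤ 1) → 0 < k →
  ∑ j : Fin m, ∫ z in excl ε n, φ (fun i => T z (e (j, i))) * tens g z ≤
    pg g ε n * (m * (∫ y, φ y * tens (gau c a b t) y) + m * k / 2 +
      (-Real.log (pg g ε n) + n * δ + L) / k)

def N_fixD : Prop := ∀ (ε c a b δ t L : ℝ) (g : E3 × E3 → ℝ) (n : ℕ) (T : Cfg n → Cfg n),
  Par c a b → Near c a b δ g → 0 < pg g ε n → GoodN g a b ε t T L →
  ∀ (m s : ℕ) (φ : Cfg s → ℝ) (k : ℝ), 1 ≤ m → m * s ≤ n → Measurable φ →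
  (∀ y, |φ y| ≤ 1) → 0 < k →
  |(∫ z in excl ε n, (∑ e : Fin s ↪ Fin n, φ (fun i => T z (e i))) * tens g z) -
    (∫ y, φ y * tens (gau c a b t) y) * pg g ε n * (n.descFactorial s : ℝ)| ≤
    (n.descFactorial s : ℝ) * pg g ε n *
      (k / 2 + (-Real.log (pg g ε n) + n * δ + L) / (m * k))

def N_triv : Prop := ∀ (ε θ : ℝ) (g : E3 × E3 → ℝ) (n s : ℕ) (T : Cfg n → Cfg n)
  (φ : Cfg s → ℝ), Dens g → |θ| ≤ 1 → Measurable T → Measurable φ → (∀ y, |φ y| ≤ 1) →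
  |(∫ z in excl ε n, (∑ e : Fin s ↪ Fin n, φ (fun i => T z (e i))) * tens g z) -
    θ * pg g ε n * (n.descFactorial s : ℝ)| ≤ (n.descFactorial s : ℝ) * pg g ε n * 2

def N_fixE : Prop := ∀ (ε c a b δ t K C : ℝ) (g : E3 × E3 → ℝ) (n : ℕ) (T : Cfg n → Cfg n),
  0 < ε → Par c a b → Near c a b δ g → Measurable T → 0 ≤ K → 0 ≤ C →
  (∀ y : E3, ∫ z in {z : E3 × E3 | ‖z.1 - y‖ ≤ ε}, g z ≤ K) →
  (0 < pg g ε n → -Real.log (pg g ε n) ≤ 2 * (n : ℝ) ^ 2 * K →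
    GoodN g a b ε t T (C * ((n : ℝ) ^ 2 * K + n * δ))) →
  ∀ (s : ℕ) (φ : Cfg s → ℝ) (k : ℝ), 1 ≤ s → Measurable φ → (∀ y, |φ y| ≤ 1) → 0 < k → k ≤ 1 →
  |(∫ z in excl ε n, (∑ e : Fin s ↪ Fin n, φ (fun i => T z (e i))) * tens g z) -
    (∫ y, φ y * tens (gau c a b t) y) * pg g ε n * (n.descFactorial s : ℝ)| ≤
    (n.descFactorial s : ℝ) * pg g ε n *
      ((k / 2 + 2 * s * (1 + C) * δ / k) + 2 * s * (2 + C) * K / k * n)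

def N_gron : Prop := ∀ T l C : ℝ, 0 < T → 0 < l → 0 ≤ C → ∃ A : ℝ, 0 ≤ A ∧
  ∀ (ι : Type) (h D ω ω' : ℝ → ι → ℝ) (r : ι → ℝ) (N₀ d : ℝ), 0 ≤ N₀ → 0 ≤ d → (∀ i, 0 ≤ r i) →
  (∀ t i, 0 ≤ ω t i ∧ HasDerivAt (fun s => ω s i) (ω' t i) t ∧ |ω' t i| ≤ 4 * r i * ω t i) →
  (∀ i, |h 0 i| ≤ d * ω 0 i * Real.exp (-(l * r i ^ 2))) →
  (∀ t ∈ Icc 0 T, ∀ i, HasDerivWithinAt (fun s => h s i) (D t i) (Icc 0 T) t) →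
  (∀ t ∈ Icc 0 T, ∀ i, |h t i| ≤ N₀ * ω t i * Real.exp (-(l * r i ^ 2))) →
  (∀ t ∈ Icc 0 T, ∀ l' N : ℝ, l / 2 ≤ l' → l' ≤ l → 0 ≤ N →
    (∀ i, |h t i| ≤ N * ω t i * Real.exp (-(l' * r i ^ 2))) →
    ∀ i, |D t i| ≤ C * N * (1 + r i) * ω t i * Real.exp (-(l' * r i ^ 2))) →
  ∀ t ∈ Icc 0 T, ∀ i, |h t i| ≤ A * d * ω t i * Real.exp (-(l / 2 * r i ^ 2))

def N_wt : Prop := (∀ (x v : E3) (t : ℝ), ∃ w : ℝ,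
    HasDerivAt (fun s : ℝ => ((1 + ‖x + s • v‖ ^ 2) ^ 2)⁻¹) w t ∧
      |w| ≤ 4 * ‖v‖ * ((1 + ‖x + t • v‖ ^ 2) ^ 2)⁻¹) ∧
  (∀ a : ℝ, 0 < a → ∃ K : ℝ, 0 ≤ K ∧ ∀ x : E3,
    Real.exp (-(a * ‖x‖ ^ 2)) ≤ K * ((1 + ‖x‖ ^ 2) ^ 2)⁻¹) ∧
  ∀ l : ℝ, 0 < l → Integrable (fun z : E3 × E3 =>
    ((1 + ‖z.1‖ ^ 2) ^ 2)⁻¹ * Real.exp (-(l * ‖z.2‖ ^ 2)))

def N_pt : Prop := ∀ β c a b T M : ℝ, 0 < β → Par c a b → 0 < T → ∃ A l : ℝ, 0 ≤ A ∧ 0 < l ∧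
  ∀ (S : E3 → E3 → E3) (δ η : ℝ) (g : E3 × E3 → ℝ) (f : ℝ → E3 × E3 → ℝ), Elastic S → 0 < η →
    Near c a b δ g → RegularB S β g T f M → ∀ t ∈ Icc 0 T, ∀ x v : E3,
    |f t (x, v) - gau c a b t (x, v)| ≤
      A * δ * (η + ((1 + ‖x‖ ^ 2) ^ 2)⁻¹) * Real.exp (-(l * ‖v‖ ^ 2))

def N_stab : Prop := ∀ β c a b T M : ℝ, 0 < β → Par c a b → 0 < T → ∃ A : ℝ, 0 ≤ A ∧
  ∀ (S : E3 → E3 → E3) (δ : ℝ) (g : E3 × E3 → ℝ) (f : ℝ → E3 × E3 → ℝ), Elastic S →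
    Near c a b δ g → RegularB S β g T f M → ∀ t ∈ Icc 0 T,
    ∫ z, |f t z - gau c a b t z| ≤ A * δ

def N_tens : Prop := ∀ (f g : E3 × E3 → ℝ) (s : ℕ), (∀ z, 0 ≤ f z) → (∀ z, 0 ≤ g z) →
  ∫ z, f z = 1 → ∫ z, g z = 1 → Integrable (fun z : Cfg s => tens f z) ∧
    Integrable (fun z : Cfg s => tens g z) ∧
    ∫ z : Cfg s, |tens f z - tens g z| ≤ s * ∫ z, |f z - g z|

end Vale.Agent.P119
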