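import Vale.Agent.P119N.Stm

/-! Tensor powers of a density. -/

open MeasureTheory Filter Topology Set
open scoped InnerProductSpace

namespace Vale.Agent.P119

theorem n_ten : N_ten := by
  intro g n hg
  obtain ⟨h1, h2, h3, h4⟩ := hg
  refine ⟨?_, fun z => Finset.prod_nonneg fun i _ => h2 _,
    Integrable.fintype_prod (f := fun _ => g) fun _ => h3, ?_⟩
  · exact Finset.measurable_prod _ fun i _ => h1.comp (measurable_pi_apply i)
  · simp only [tens]
    rw [integral_fintype_prod_volume_eq_prod fun _ => g]
    simp [h4]

end Vale.Agent.P119
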