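import Vale.Agent.P119N.Stm

open MeasureTheory Filter Topology Set
open scoped InnerProductSpace

namespace Vale.Agent.P119

namespace NTensAux

theorem int_tens {f : E3 × E3 → ℝ} (hf : Integrable f) (s : ℕ) :
    Integrable (fun z : Cfg s => tens f z) :=
  Integrable.fintype_prod (f := fun _ : Fin s => f) fun _ => hf

theorem val_tens (f : E3 × E3 → ℝ) (s : ℕ) : ∫ z : Cfg s, tens f z = (∫ z, f z) ^ s := by
  unfold tens
  rw [integral_fintype_prod_volume_eq_prod fun _ : Fin s => f]
  simp

theorem abs_le' {a b c : ℝ} (h1 : c ≤ a) (h2 : c ≤ b) : |a - b| ≤ a + b - 2 * c :=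
  abs_le.mpr ⟨by linarith, by linarith⟩

end NTensAux

open NTensAux in
theorem n_tens : N_tens := by
  intro f g s f0 g0 f1 g1
  have hf : Integrable f := Integrable.of_integral_ne_zero (by rw [f1]; exact one_ne_zero)
  have hg : Integrable g := Integrable.of_integral_ne_zero (by rw [g1]; exact one_ne_zero)
  have hm : Integrable (fun z => min (f z) (g z)) := hf.inf hg
  have m0 : ∀ z, 0 ≤ min (f z) (g z) := fun z => le_min (f0 z) (g0 z)
  refine ⟨int_tens hf s, int_tens hg s, ?_⟩
  have hD : ∫ z, |f z - g z| = 2 - 2 * ∫ z, min (f z) (g z) := by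
    have e : ∀ z, |f z - g z| = f z + g z - 2 * min (f z) (g z) := fun z => by
      rcases le_total (f z) (g z) with h | h
      · rw [min_eq_left h, abs_of_nonpos (by linarith)]; ring
      · rw [min_eq_right h, abs_of_nonneg (by linarith)]; ring
    simp only [e]
    rw [integral_sub (hf.fun_add hg) (hm.const_mul 2), integral_add hf hg, integral_const_mul, f1, g1]
    ring
  have hI : ∫ z : Cfg s, |tens f z - tens g z| ≤
      ∫ z : Cfg s, (tens f z + tens g z - 2 * tens (fun z => min (f z) (g z)) z) :=
    integral_mono ((int_tens hf s).sub (int_tens hg s)).abs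
      (((int_tens hf s).add (int_tens hg s)).sub ((int_tens hm s).const_mul 2)) fun z =>
      abs_le' (Finset.prod_le_prod (fun i _ => m0 _) fun i _ => min_le_left _ _)
        (Finset.prod_le_prod (fun i _ => m0 _) fun i _ => min_le_right _ _)
  rw [integral_sub ((int_tens hf s).fun_add (int_tens hg s)) ((int_tens hm s).const_mul 2),
    integral_add (int_tens hf s) (int_tens hg s), integral_const_mul, val_tens, val_tens,
    val_tens, f1, g1, one_pow] at hI
  have a0 : 0 ≤ ∫ z, min (f z) (g z) := integral_nonneg m0
  have hB := one_add_mul_le_pow (a := (∫ z, min (f z) (g z)) - 1) (by linarith) s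
  rw [add_sub_cancel] at hB
  rw [hD]
  linarith

end Vale.Agent.P119
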