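import Vale.Agent.P119N.Stm

open MeasureTheory Filter Topology Set
open scoped InnerProductSpace

namespace Vale.Agent.P119

namespace NTrivAux

lemma bound {α : Type} [MeasurableSpace α] (μ : Measure α) (g w : α → ℝ) (K : ℝ)
    (hw : Integrable w μ) (h0 : ∀ z, 0 ≤ w z) (hg : ∀ z, |g z| ≤ K) :
    |∫ z, g z * w z ∂μ| ≤ K * ∫ z, w z ∂μ := by
  rw [← integral_const_mul, ← Real.norm_eq_abs]
  refine norm_integral_le_of_norm_le (hw.const_mul K) (Eventually.of_forall fun z => ?_)
  rw [Real.norm_eq_abs, abs_mul, abs_of_nonneg (h0 z)]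
  exact mul_le_mul_of_nonneg_right (hg z) (h0 z)

end NTrivAux

theorem n_triv (hten : N_ten) : N_triv := by
  intro ε θ g n s T φ hg h1 _ _ hφ
  obtain ⟨-, h0, hi, -⟩ := hten g n hg
  have h2 := NTrivAux.bound (volume.restrict (excl ε n))
    (fun z => ∑ e : Fin s ↪ Fin n, φ (fun k => T z (e k))) (fun z => tens g z)
    (n.descFactorial s : ℝ) hi.integrableOn h0 fun z => by
      refine (Finset.abs_sum_le_sum_abs _ _).trans
        ((Finset.sum_le_sum fun e _ => hφ _).trans (le_of_eq ?_))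
      simp [Fintype.card_embedding_eq]
  have hp : 0 ≤ pg g ε n := integral_nonneg h0
  have h3 : |θ * pg g ε n * (n.descFactorial s : ℝ)| ≤ (n.descFactorial s : ℝ) * pg g ε n := by
    rw [mul_assoc, abs_mul, abs_of_nonneg (mul_nonneg hp (Nat.cast_nonneg _)),
      mul_comm (pg g ε n)]
    exact mul_le_of_le_one_left (mul_nonneg (Nat.cast_nonneg _) hp) h1
  refine (abs_sub _ _).trans ?_
  have h4 : (∫ z in excl ε n, tens g z) = pg g ε n := rfl
  rw [h4] at h2
  linarith

end Vale.Agent.P119
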