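import Vale.Agent.P119N.Stm

open MeasureTheory Filter Topology Set
open scoped InnerProductSpace

namespace Vale.Agent.P119

namespace NWtAux

theorem gi {b : ℝ} (hb : 0 < b) : Integrable fun v : E3 => Real.exp (-b * ‖v‖ ^ 2) := by
  refine Integrable.of_integral_ne_zero ?_
  rw [GaussianFourier.integral_rexp_neg_mul_sq_norm hb]
  exact (Real.rpow_pos_of_pos (div_pos Real.pi_pos hb) _).ne'

theorem ji : Integrable fun x : E3 => ((1 + ‖x‖ ^ 2) ^ 2)⁻¹ := by
  have h : ((Module.finrank ℝ E3 : ℕ) : ℝ) < 4 := by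
    rw [finrank_euclideanSpace_fin]
    norm_num
  refine (integrable_rpow_neg_one_add_norm_sq (μ := volume) h).congr
    (Eventually.of_forall fun x => ?_)
  have h0 : (0 : ℝ) ≤ 1 + ‖x‖ ^ 2 := by positivity
  have h1 : (-4 / 2 : ℝ) = -((2 : ℕ) : ℝ) := by norm_num
  simp only
  rw [h1, Real.rpow_neg h0, Real.rpow_natCast]

theorem bd {u p r s : ℝ} (hu : 0 < u) (hr : r ≤ u) (hs : 0 ≤ s) (hp : |p| ≤ r * s) :
    |-(2 * u * (2 * p)) / (u ^ 2) ^ 2| ≤ 4 * s * (u ^ 2)⁻¹ := by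
  have h1 : -(2 * u * (2 * p)) / (u ^ 2) ^ 2 = -(4 * p / u ^ 3) := by
    field_simp
    ring
  have h2 : 4 * s * (u ^ 2)⁻¹ = 4 * (u * s) / u ^ 3 := by
    field_simp
  rw [h1, h2, abs_neg, abs_div, abs_mul, abs_of_pos (pow_pos hu 3),
    abs_of_pos (show (0 : ℝ) < 4 by norm_num)]
  refine div_le_div_of_nonneg_right ?_ (pow_pos hu 3).le
  have := mul_le_mul_of_nonneg_right hr hs
  linarith

end NWtAux

theorem n_wt : N_wt := by
  refine ⟨fun x v t => ?_, fun a ha => ?_, fun l hl => ?_⟩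
  · have h1 : HasDerivAt (fun s : ℝ => x + s • v) v t := by
      simpa using ((hasDerivAt_id t).smul_const v).const_add x
    have h2 : HasDerivAt (fun s : ℝ => 1 + ‖x + s • v‖ ^ 2) (2 * ⟪x + t • v, v⟫_ℝ) t :=
      h1.norm_sq.const_add 1
    have hu : (0 : ℝ) < 1 + ‖x + t • v‖ ^ 2 := by positivity
    have h3 : HasDerivAt (fun s : ℝ => (1 + ‖x + s • v‖ ^ 2) ^ 2)
        (2 * (1 + ‖x + t • v‖ ^ 2) * (2 * ⟪x + t • v, v⟫_ℝ)) t := by
      simpa using h2.fun_pow 2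
    refine ⟨_, h3.fun_inv (pow_pos hu 2).ne', ?_⟩
    refine NWtAux.bd hu ?_ (norm_nonneg v) (abs_real_inner_le_norm _ _)
    nlinarith [sq_nonneg (‖x + t • v‖ - 1)]
  · refine ⟨(1 + 2 / a) ^ 2, by positivity, fun x => ?_⟩
    obtain ⟨r, hr⟩ : ∃ r : ℝ, r = ‖x‖ ^ 2 := ⟨_, rfl⟩
    have r0 : 0 ≤ r := by rw [hr]; positivity
    rw [← hr]
    have h1 : 1 + r ≤ (1 + 2 / a) * (a * r / 2 + 1) := by
      have e : (1 + 2 / a) * (a * r / 2 + 1) = 1 + r + (a * r / 2 + 2 / a) := by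
        field_simp
        ring
      have : 0 ≤ a * r / 2 + 2 / a := by positivity
      linarith
    have h2 : 1 + r ≤ (1 + 2 / a) * Real.exp (a * r / 2) :=
      h1.trans (mul_le_mul_of_nonneg_left (Real.add_one_le_exp _) (by positivity))
    have h3 : (1 + r) ^ 2 ≤ (1 + 2 / a) ^ 2 * Real.exp (a * r) := by
      have e : Real.exp (a * r) = Real.exp (a * r / 2) ^ 2 := by
        rw [sq, ← Real.exp_add]
        congr 1
        ring
      rw [e, ← mul_pow]
      exact pow_le_pow_left₀ (by positivity) h2 2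
    rw [← div_eq_mul_inv, le_div_iff₀ (by positivity), Real.exp_neg, inv_mul_le_iff₀ (Real.exp_pos _)]
    linarith
  · have := NWtAux.ji.mul_prod (NWtAux.gi hl)
    rw [Measure.volume_eq_prod]
    refine this.congr (Eventually.of_forall fun z => ?_)
    simp only [neg_mul]

end Vale.Agent.P119
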