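import Vale.Agent.P119S.Final
import Vale.Agent.P119N.Gron
import Vale.Agent.P119N.Wt
import Vale.Agent.P119N.Pt
import Vale.Agent.P119N.Stab
import Vale.Agent.P119N.Tens
import Vale.Agent.P119N.Ten
import Vale.Agent.P119N.Bas
import Vale.Agent.P119N.PA
import Vale.Agent.P119N.PB
import Vale.Agent.P119N.P
import Vale.Agent.P119N.Ent
import Vale.Agent.P119N.Ey
import Vale.Agent.P119N.FixI
import Vale.Agent.P119N.FixX
import Vale.Agent.P119N.FixA
import Vale.Agent.P119N.FixC
import Vale.Agent.P119N.FixD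
import Vale.Agent.P119N.Triv
import Vale.Agent.P119N.FixE
import Vale.Agent.P119N.Main

namespace Vale.Agent.P119

theorem w_gron : N_gron := n_gron
theorem w_wt : N_wt := n_wt
theorem w_pt : N_pt := n_pt t_Qbd w_gron w_wt
theorem w_stab : N_stab := n_stab w_pt w_wt
theorem w_tens : N_tens := n_tens
theorem w_ten : N_ten := n_ten
theorem w_bas : N_bas := n_bas t_g3 w_ten
theorem w_pA : N_pA := n_pA w_ten
theorem w_pB : N_pB := n_pB
theorem w_p : N_p := n_p w_pA w_pB w_ten
theorem w_ent : N_ent := n_ent t_g3 t_ent w_ten w_bas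
theorem w_ey : N_ey := n_ey u_Y u_Zu u_Zl w_ent t_g3 w_ten w_bas
theorem w_fixI : N_fixI := n_fixI u_dom t_g3 w_ten w_bas
theorem w_fixX : N_fixX := n_fixX u_path u_dom u_exp u_vir u_Y t_g3 w_ten w_bas
theorem w_fixA : N_fixA := n_fixA u_ctl u_alg w_fixI w_fixX u_liou w_ent w_ey t_g3 w_ten w_bas
theorem w_fixC : N_fixC := n_fixC t_g1 t_g3 t_pi t_hoef w_ent w_ten w_bas
theorem w_fixD : N_fixD := n_fixD t_perm w_fixC w_ten w_bas
theorem w_triv : N_triv := n_triv w_ten
theorem w_fixE : N_fixE := n_fixE w_p t_plow w_fixD w_triv t_triv w_bas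
theorem w_main : N_main := n_main t_g1 u_g2 w_p w_bas w_fixA w_fixE t_triv t_gc

end Vale.Agent.P119
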